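import Mathlib

/-!
# P267, package GE-REC: the abstract recursion lemma for exact holomorphic frames

Everything is written over an abstract `∂̄`-system: functions on a set `W`, an abstract module `F`
of forms, a relation `D u a` (`u` is smooth on `W` and `∂̄u = a` there), the pull back by a self
map `sig` of `W`.

* `DSys.series` : from `pull (A i) = ∑ M i j • A j + ∂̄(U i)` the convergent series `psi` with
  `∂̄ psi i = A i`.
* `DSys.exists_rec` : from the one step recursions `A l = ∑_{j ∈ I l} A j + ∂̄(g l)` the expressions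
  `A l = ∑_{b ∈ Bs} nn l b • A b + ∂̄(u l)`, with bounds for `u l`.
* `DSys.main` : both together, for a recursion compatible with `pull`.
-/

set_option linter.unusedVariables false

open Filter Topology Set

noncomputable section

namespace Vale.Agent.P267.H585

/-- An abstract `∂̄`-system. -/
structure DSys (M F : Type*) [AddCommGroup F] [Module ℂ F] where
  /-- the domain -/
  W : Set M
  /-- the self map (`γ⁻¹`) -/
  sig : M → M
  sig_W : MapsTo sig W W
  /-- `D u a` : `u` is smooth on `W` and `∂̄u = a` on `W` -/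
  D : (M → ℂ) → F → Prop
  D_zero : D 0 0
  D_add : ∀ {u v : M → ℂ} {a b : F}, D u a → D v b → D (u + v) (a + b)
  D_smul : ∀ (c : ℂ) {u : M → ℂ} {a : F}, D u a → D (c • u) (c • a)
  /-- pull back of forms by `sig` -/
  pull : F →ₗ[ℂ] F
  D_pull : ∀ {u : M → ℂ} {a : F}, D u a → D (u ∘ sig) (pull a)
  /-- the sequence of forms tends to `0` locally uniformly on `W` -/
  Small : (ℕ → F) → Prop
  /-- closedness of `∂̄` -/
  closed : ∀ (u : ℕ → M → ℂ) (v : M → ℂ) (b : ℕ → F) (a : F), (∀ k, D (u k) (b k)) →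
    TendstoUniformlyOn u v atTop W → Small (fun k => a - b k) → D v a

namespace DSys

variable {M F : Type*} [AddCommGroup F] [Module ℂ F] (S : DSys M F)

theorem D_neg {u : M → ℂ} {a : F} (h : S.D u a) : S.D (-u) (-a) := by
  have := S.D_smul (-1) h
  rwa [neg_smul, one_smul, neg_smul, one_smul] at this

theorem D_sum {α : Type*} (s : Finset α) {u : α → M → ℂ} {a : α → F}
    (h : ∀ i ∈ s, S.D (u i) (a i)) : S.D (∑ i ∈ s, u i) (∑ i ∈ s, a i) := by
  classical
  induction s using Finset.induction_on with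
  | empty => simpa using S.D_zero
  | insert i s hi ih =>
    rw [Finset.sum_insert hi, Finset.sum_insert hi]
    exact S.D_add (h i (Finset.mem_insert_self _ _))
      (ih fun j hj => h j (Finset.mem_insert_of_mem hj))

theorem D_nsmul (n : ℕ) {u : M → ℂ} {a : F} (h : S.D u a) : S.D (n • u) (n • a) := by
  have := S.D_smul (n : ℂ) h
  rwa [Nat.cast_smul_eq_nsmul, Nat.cast_smul_eq_nsmul] at this

theorem D_iterate (m : ℕ) {u : M → ℂ} {a : F} (h : S.D u a) :
    S.D (u ∘ S.sig^[m]) ((S.pull ^ m) a) := by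
  induction m with
  | zero => simpa using h
  | succ m ih =>
    have h1 := S.D_pull ih
    rw [pow_succ', Module.End.mul_apply, Function.iterate_succ, ← Function.comp_assoc]
    exact h1

theorem iterate_mem (m : ℕ) {x : M} (hx : x ∈ S.W) : S.sig^[m] x ∈ S.W :=
  (S.sig_W.iterate m) hx

/-! ### the series -/

section series
variable {ι : Type*} [Fintype ι] [DecidableEq ι] {A aU : ι → F} {U : ι → M → ℂ}
  {Mm Nn : Matrix ι ι ℂ}

/-- the solution `psi i = - ∑_m ∑_j (N^(m+1)) i j U j ∘ sig^m` -/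
def psi (Nn : Matrix ι ι ℂ) (U : ι → M → ℂ) (i : ι) (x : M) : ℂ :=
  -∑' m : ℕ, ∑ j, (Nn ^ (m + 1)) i j * U j (S.sig^[m] x)

theorem expand (hNM : Nn * Mm = 1) (hrec : ∀ i, S.pull (A i) = ∑ j, Mm i j • A j + aU i) (k : ℕ)
    (i : ι) : A i = ∑ j, (Nn ^ k) i j • (S.pull ^ k) (A j) -
      ∑ m ∈ Finset.range k, ∑ j, (Nn ^ (m + 1)) i j • (S.pull ^ m) (aU j) := by
  induction k with
  | zero =>
    simp only [pow_zero, Module.End.one_apply, Finset.range_zero, Finset.sum_empty, sub_zero]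
    rw [Finset.sum_eq_single i]
    · rw [Matrix.one_apply_eq, one_smul]
    · intro j _ hj
      rw [Matrix.one_apply_ne (Ne.symm hj), zero_smul]
    · intro h; exact absurd (Finset.mem_univ _) h
  | succ k ih =>
    rw [Finset.sum_range_succ]
    have h1 : ∑ j, (Nn ^ (k + 1)) i j • (S.pull ^ (k + 1)) (A j) =
        ∑ j, (Nn ^ k) i j • (S.pull ^ k) (A j) +
          ∑ j, (Nn ^ (k + 1)) i j • (S.pull ^ k) (aU j) := by
      have h2 : ∀ j, (S.pull ^ (k + 1)) (A j) =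
          ∑ l, Mm j l • (S.pull ^ k) (A l) + (S.pull ^ k) (aU j) := by
        intro j
        rw [pow_succ, Module.End.mul_apply, hrec, map_add, map_sum]
        simp only [map_smul]
      simp only [h2, smul_add, Finset.sum_add_distrib, Finset.smul_sum, smul_smul]
      congr 1
      rw [Finset.sum_comm]
      refine Finset.sum_congr rfl fun l _ => ?_
      rw [← Finset.sum_smul]
      congr 1
      have h3 : (Nn ^ (k + 1) * Mm) i l = (Nn ^ k) i l := by
        rw [pow_succ, Matrix.mul_assoc, hNM, Matrix.mul_one]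
      rw [← h3, Matrix.mul_apply]
    rw [h1]
    conv_lhs => rw [ih]
    abel

theorem norm_term_le {R B : ℕ → ℝ} (hR : ∀ k i j, ‖(Nn ^ (k + 1)) i j‖ ≤ R k) {x : M}
    (hB : ∀ j k, ‖U j (S.sig^[k] x)‖ ≤ B k) (i : ι) (k : ℕ) :
    ‖∑ j, (Nn ^ (k + 1)) i j * U j (S.sig^[k] x)‖ ≤ Fintype.card ι * (R k * B k) := by
  refine (norm_sum_le _ _).trans ?_
  have h1 : ∀ j ∈ (Finset.univ : Finset ι), ‖(Nn ^ (k + 1)) i j * U j (S.sig^[k] x)‖ ≤
      R k * B k := by
    intro j _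
    rw [norm_mul]
    exact mul_le_mul (hR k i j) (hB j k) (norm_nonneg _) ((norm_nonneg _).trans (hR k i j))
  refine (Finset.sum_le_sum h1).trans ?_
  rw [Finset.sum_const, Finset.card_univ, nsmul_eq_mul]

/-- pointwise bound for `psi` -/
theorem norm_psi_le {R B : ℕ → ℝ} (hR : ∀ k i j, ‖(Nn ^ (k + 1)) i j‖ ≤ R k) {x : M}
    (hB : ∀ j k, ‖U j (S.sig^[k] x)‖ ≤ B k) (hs : Summable fun k => R k * B k) (i : ι) :
    ‖S.psi Nn U i x‖ ≤ Fintype.card ι * ∑' k, R k * B k := by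
  rw [psi, norm_neg, ← tsum_mul_left]
  exact tsum_of_norm_bounded (hs.mul_left _).hasSum fun k => S.norm_term_le hR hB i k

theorem summable_psi {R B : ℕ → ℝ} (hR : ∀ k i j, ‖(Nn ^ (k + 1)) i j‖ ≤ R k) {x : M}
    (hB : ∀ j k, ‖U j (S.sig^[k] x)‖ ≤ B k) (hs : Summable fun k => R k * B k) (i : ι) :
    Summable fun k => ∑ j, (Nn ^ (k + 1)) i j * U j (S.sig^[k] x) :=
  Summable.of_norm_bounded (hs.mul_left _) fun k => S.norm_term_le hR hB i k

/-- **(R1)** the series solves `∂̄ psi i = A i` -/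
theorem series (hNM : Nn * Mm = 1) (hU : ∀ i, S.D (U i) (aU i))
    (hrec : ∀ i, S.pull (A i) = ∑ j, Mm i j • A j + aU i) {R B : ℕ → ℝ}
    (hR : ∀ k i j, ‖(Nn ^ (k + 1)) i j‖ ≤ R k)
    (hB : ∀ x ∈ S.W, ∀ j k, ‖U j (S.sig^[k] x)‖ ≤ B k) (hs : Summable fun k => R k * B k)
    (hS : ∀ i, S.Small (fun k => ∑ j, (Nn ^ k) i j • (S.pull ^ k) (A j))) (i : ι) :
    S.D (S.psi Nn U i) (A i) := by
  have hsum : ∀ k : ℕ, S.D
      (-∑ m ∈ Finset.range k, ∑ j, (Nn ^ (m + 1)) i j • (U j ∘ S.sig^[m]))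
      (-∑ m ∈ Finset.range k, ∑ j, (Nn ^ (m + 1)) i j • (S.pull ^ m) (aU j)) := fun k =>
    S.D_neg (S.D_sum _ fun m _ => S.D_sum _ fun j _ => S.D_smul _ (S.D_iterate m (hU j)))
  refine S.closed _ _ _ _ hsum ?_ ?_
  · have h1 := tendstoUniformlyOn_tsum_nat (f := fun m x =>
      -∑ j, (Nn ^ (m + 1)) i j * U j (S.sig^[m] x)) (hs.mul_left (Fintype.card ι : ℝ)) (s := S.W)
      (fun m x hx => by rw [norm_neg]; exact S.norm_term_le hR (hB x hx) i m)
    have h2 : (fun k : ℕ => (-∑ m ∈ Finset.range k, ∑ j, (Nn ^ (m + 1)) i j •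
        (U j ∘ S.sig^[m]) : M → ℂ)) = fun (k : ℕ) (x : M) => ∑ m ∈ Finset.range k,
          -∑ j, (Nn ^ (m + 1)) i j * U j (S.sig^[m] x) := by
      funext k x
      simp only [Pi.neg_apply, Finset.sum_apply, Pi.smul_apply, smul_eq_mul, Function.comp_apply,
        Finset.sum_neg_distrib]
    have h3 : S.psi Nn U i = fun x => ∑' m : ℕ, -∑ j, (Nn ^ (m + 1)) i j * U j (S.sig^[m] x) := by
      funext x
      rw [psi, tsum_neg]
    rw [h2, h3]
    exact h1
  · have h4 : (fun k : ℕ => A i -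
        -∑ m ∈ Finset.range k, ∑ j, (Nn ^ (m + 1)) i j • (S.pull ^ m) (aU j)) =
        fun k => ∑ j, (Nn ^ k) i j • (S.pull ^ k) (A j) := by
      funext k
      conv_lhs => rw [S.expand hNM hrec k i]
      abel
    rw [h4]
    exact hS i

end series

/-! ### the recursion -/

section recursion

/-- solution of a recursion along `ℤ` -/
theorem exists_solution {V : Type*} [AddCommMonoid V] (i : ℤ) (Bs : Finset ℤ)
    (I : ℤ → Finset ℤ) (hI : ∀ l, i < l → l ∉ Bs → I l ⊆ Finset.Ioo i l) (base g : ℤ → V) :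
    ∃ f : ℤ → V, (∀ b ∈ Bs, f b = base b) ∧
      ∀ l, i < l → l ∉ Bs → f l = ∑ j ∈ I l, f j + g l := by
  classical
  have wf : WellFounded fun a b : ℤ => (a - i).toNat < (b - i).toNat :=
    (measure fun l : ℤ => (l - i).toNat).wf
  set f : ℤ → V := wf.fix fun l rec => if l ∈ Bs then base l else
    (∑ j ∈ (I l).attach, if h : (j.1 - i).toNat < (l - i).toNat then rec j.1 h else 0) + g l with hf
  have hfe : ∀ l, f l = if l ∈ Bs then base l else
      (∑ j ∈ (I l).attach, if h : (j.1 - i).toNat < (l - i).toNat then f j.1 else 0) + g l := by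
    intro l
    rw [hf, WellFounded.fix_eq]
  refine ⟨f, fun b hb => by rw [hfe, if_pos hb], fun l hl hB => ?_⟩
  rw [hfe, if_neg hB]
  congr 1
  rw [← Finset.sum_attach (I l)]
  refine Finset.sum_congr rfl fun j _ => ?_
  have hj := Finset.mem_Ioo.1 (hI l hl hB j.2)
  rw [dif_pos (by omega)]

/-- strong induction on `l > i` -/
theorem ind_above {i : ℤ} {P : ℤ → Prop} (h : ∀ l, i < l → (∀ j, i < j → j < l → P j) → P l) :
    ∀ l, i < l → P l := by
  have key : ∀ (N : ℕ) (l : ℤ), i < l → (l - i).toNat ≤ N → P l := by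
    intro N
    induction N with
    | zero => intro l hl hN; exact absurd hN (by omega)
    | succ N ih =>
      intro l hl hN
      exact h l hl fun j hj hjl => ih j hj (by omega)
  exact fun l hl => key _ l hl le_rfl

/-- **(R2)** all forms are combinations of the base forms, up to `∂̄` -/
theorem exists_rec {i : ℤ} {Bs : Finset ℤ} {I : ℤ → Finset ℤ}
    (hI : ∀ l, i < l → l ∉ Bs → I l ⊆ Finset.Ioo i l)
    (hne : ∀ l, i < l → l ∉ Bs → (I l).Nonempty) {A a : ℤ → F} {g : ℤ → M → ℂ}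
    (hD : ∀ l, i < l → l ∉ Bs → S.D (g l) (a l))
    (hA : ∀ l, i < l → l ∉ Bs → A l = ∑ j ∈ I l, A j + a l) :
    ∃ (nn : ℤ → ℤ → ℕ) (u : ℤ → M → ℂ) (au : ℤ → F),
      (∀ l, i < l → S.D (u l) (au l)) ∧
      (∀ l, i < l → A l = ∑ b ∈ Bs, nn l b • A b + au l) ∧
      (∀ b ∈ Bs, ∀ c, nn b c = if b = c then 1 else 0) ∧ (∀ b ∈ Bs, u b = 0) ∧
      (∀ l, i < l → l ∉ Bs → ∀ c, nn l c = ∑ j ∈ I l, nn j c) ∧
      (∀ l, i < l → l ∉ Bs → u l = ∑ j ∈ I l, u j + g l) ∧
      (∀ l, i < l → 1 ≤ ∑ b ∈ Bs, nn l b) ∧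
      ∀ l, i < l → ∀ x, ‖u l x‖ ≤ (∑ b ∈ Bs, nn l b : ℕ) * ∑ j ∈ Finset.Ioc i l, ‖g j x‖ := by
  classical
  obtain ⟨nn, hn1, hn2⟩ := exists_solution (V := ℤ → ℕ) i Bs I hI
    (fun b c => if b = c then 1 else 0) 0
  obtain ⟨u, hu1, hu2⟩ := exists_solution (V := M → ℂ) i Bs I hI 0 g
  obtain ⟨au, ha1, ha2⟩ := exists_solution (V := F) i Bs I hI 0 a
  have hn2' : ∀ l, i < l → l ∉ Bs → ∀ c, nn l c = ∑ j ∈ I l, nn j c := by
    intro l hl hB c
    rw [hn2 l hl hB, Pi.add_apply, Finset.sum_apply, Pi.zero_apply, Pi.zero_apply, add_zero]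
  have hone : ∀ l, i < l → 1 ≤ ∑ b ∈ Bs, nn l b := by
    refine ind_above fun l hl ih => ?_
    by_cases hB : l ∈ Bs
    · rw [hn1 l hB]
      simp [hB]
    · obtain ⟨j, hj⟩ := hne l hl hB
      have hj' := Finset.mem_Ioo.1 (hI l hl hB hj)
      refine (ih j hj'.1 hj'.2).trans (Finset.sum_le_sum fun b _ => ?_)
      rw [hn2' l hl hB]
      exact Finset.single_le_sum (f := fun j => nn j b) (fun _ _ => Nat.zero_le _) hj
  refine ⟨nn, u, au, ?_, ?_, fun b hb c => by rw [hn1 b hb], fun b hb => by rw [hu1 b hb]; rfl,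
    hn2', hu2, hone, ?_⟩
  · refine ind_above fun l hl ih => ?_
    by_cases hB : l ∈ Bs
    · rw [hu1 l hB, ha1 l hB]; exact S.D_zero
    · rw [hu2 l hl hB, ha2 l hl hB]
      refine S.D_add (S.D_sum _ fun j hj => ?_) (hD l hl hB)
      have hj' := Finset.mem_Ioo.1 (hI l hl hB hj)
      exact ih j hj'.1 hj'.2
  · refine ind_above fun l hl ih => ?_
    by_cases hB : l ∈ Bs
    · rw [hn1 l hB, ha1 l hB, Finset.sum_eq_single_of_mem l hB]
      · simp
      · intro b _ hb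
        show (if l = b then 1 else 0) • A b = 0
        rw [if_neg (Ne.symm hb), zero_smul]
    · have h1 : ∀ j ∈ I l, A j = ∑ b ∈ Bs, nn j b • A b + au j := by
        intro j hj
        have hj' := Finset.mem_Ioo.1 (hI l hl hB hj)
        exact ih j hj'.1 hj'.2
      rw [hA l hl hB, Finset.sum_congr rfl h1, Finset.sum_add_distrib, ha2 l hl hB,
        Finset.sum_comm, add_assoc]
      congr 1
      refine Finset.sum_congr rfl fun b _ => ?_
      rw [← Finset.sum_smul, hn2' l hl hB]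
  · refine ind_above fun l hl ih => ?_
    intro x
    have hnn : ∀ m : ℤ, 0 ≤ ∑ j ∈ Finset.Ioc i m, ‖g j x‖ := fun m =>
      Finset.sum_nonneg fun _ _ => norm_nonneg _
    by_cases hB : l ∈ Bs
    · rw [hu1 l hB]
      simp only [Pi.zero_apply, norm_zero]
      exact mul_nonneg (Nat.cast_nonneg _) (hnn l)
    · rw [hu2 l hl hB, Pi.add_apply, Finset.sum_apply]
      have h1 : ∀ j ∈ I l, ‖u j x‖ ≤
          ((∑ b ∈ Bs, nn j b : ℕ) : ℝ) * ∑ j ∈ Finset.Ioc i (l - 1), ‖g j x‖ := by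
        intro j hj
        have hj' := Finset.mem_Ioo.1 (hI l hl hB hj)
        refine (ih j hj'.1 hj'.2 x).trans (mul_le_mul_of_nonneg_left ?_ (Nat.cast_nonneg _))
        refine Finset.sum_le_sum_of_subset_of_nonneg ?_ fun _ _ _ => norm_nonneg _
        exact Finset.Ioc_subset_Ioc_right (by omega)
      have h2 : Finset.Ioc i l = insert l (Finset.Ioc i (l - 1)) := by
        ext m
        simp only [Finset.mem_Ioc, Finset.mem_insert]
        omega
      have h3 : l ∉ Finset.Ioc i (l - 1) := by simp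
      have h4 : (∑ b ∈ Bs, nn l b : ℕ) = ∑ j ∈ I l, ∑ b ∈ Bs, nn j b := by
        rw [Finset.sum_comm]
        exact Finset.sum_congr rfl fun b _ => hn2' l hl hB b
      calc ‖∑ j ∈ I l, u j x + g l x‖ ≤ ∑ j ∈ I l, ‖u j x‖ + ‖g l x‖ :=
            (norm_add_le _ _).trans (add_le_add (norm_sum_le _ _) le_rfl)
        _ ≤ ∑ j ∈ I l, ((∑ b ∈ Bs, nn j b : ℕ) : ℝ) * ∑ j ∈ Finset.Ioc i (l - 1), ‖g j x‖ +
              ‖g l x‖ := by
            have := Finset.sum_le_sum h1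
            linarith
        _ = ((∑ b ∈ Bs, nn l b : ℕ) : ℝ) * ∑ j ∈ Finset.Ioc i (l - 1), ‖g j x‖ + ‖g l x‖ := by
            rw [← Finset.sum_mul, h4, Nat.cast_sum]
        _ ≤ ((∑ b ∈ Bs, nn l b : ℕ) : ℝ) * ∑ j ∈ Finset.Ioc i (l - 1), ‖g j x‖ +
              ((∑ b ∈ Bs, nn l b : ℕ) : ℝ) * ‖g l x‖ := by
            have h5 : (1 : ℝ) ≤ ((∑ b ∈ Bs, nn l b : ℕ) : ℝ) := by exact_mod_cast hone l hl
            have h6 := mul_le_mul_of_nonneg_right h5 (norm_nonneg (g l x))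
            linarith
        _ = ((∑ b ∈ Bs, nn l b : ℕ) : ℝ) * ∑ j ∈ Finset.Ioc i l, ‖g j x‖ := by
            rw [h2, Finset.sum_insert h3]; ring

end recursion

/-! ### both together -/

section main
variable {i : ℤ} {Bs : Finset ℤ} {nn : ℤ → ℤ → ℕ} {u : ℤ → M → ℂ} {au A : ℤ → F}

/-- the matrix of one period -/
def perM (Bs : Finset ℤ) (nn : ℤ → ℤ → ℕ) (p : ℤ) : Matrix Bs Bs ℂ :=
  Matrix.of fun b c => (nn (b.1 + p) c.1 : ℂ)

/-- the primitive of `A l` -/
def prim (Nn : Matrix Bs Bs ℂ) (nn : ℤ → ℤ → ℕ) (u : ℤ → M → ℂ) (p : ℤ) (l : ℤ) : M → ℂ :=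
  ∑ b : Bs, nn l b.1 • S.psi Nn (fun b : Bs => u (b.1 + p)) b + u l

/-- **(R3), (R4)** The forms `A l`, `l > i`, are `∂̄`-exact. `Bs` is the set of base indices, `p` the
period (`pull (A l) = A (l + p)`), `Nn` the inverse of the period matrix. -/
theorem main (hu : ∀ l, i < l → S.D (u l) (au l))
    (hA : ∀ l, i < l → A l = ∑ b ∈ Bs, nn l b • A b + au l) (hBs : ∀ b ∈ Bs, i < b) {p : ℤ}
    (hp : 0 ≤ p) (hpull : ∀ b ∈ Bs, S.pull (A b) = A (b + p)) {Nn : Matrix Bs Bs ℂ}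
    (hNM : Nn * perM Bs nn p = 1) {R B : ℕ → ℝ} (hR : ∀ k b c, ‖(Nn ^ (k + 1)) b c‖ ≤ R k)
    (hB : ∀ x ∈ S.W, ∀ b ∈ Bs, ∀ k, ‖u (b + p) (S.sig^[k] x)‖ ≤ B k)
    (hs : Summable fun k => R k * B k)
    (hS : ∀ b : Bs, S.Small (fun k => ∑ c : Bs, (Nn ^ k) b c • (S.pull ^ k) (A c))) :
    ∀ l, i < l → S.D (S.prim Nn nn u p l) (A l) := by
  intro l hl
  have hbase : ∀ b : Bs, S.D (S.psi Nn (fun b : Bs => u (b.1 + p)) b) (A b) := by
    intro b
    refine S.series (A := fun b : Bs => A b) (aU := fun b : Bs => au (b.1 + p)) (Mm := perM Bs nn p)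
      hNM (fun b => hu _ (by have := hBs b.1 b.2; omega)) ?_ hR
      (fun x hx b k => hB x hx b.1 b.2 k) hs hS b
    intro b
    show S.pull (A b.1) = ∑ c : Bs, perM Bs nn p b c • A c.1 + au (b.1 + p)
    rw [hpull b.1 b.2, hA (b.1 + p) (by have := hBs b.1 b.2; omega)]
    congr 1
    rw [← Finset.sum_coe_sort Bs fun c => nn (b.1 + p) c • A c]
    refine Finset.sum_congr rfl fun c _ => ?_
    rw [perM, Matrix.of_apply, Nat.cast_smul_eq_nsmul]
  rw [hA l hl, ← Finset.sum_coe_sort Bs fun c => nn l c • A c]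
  exact S.D_add (S.D_sum _ fun b _ => S.D_nsmul _ (hbase b)) (hu l hl)

theorem prim_apply (Nn : Matrix Bs Bs ℂ) (p l : ℤ) (x : M) :
    S.prim Nn nn u p l x =
      ∑ b : Bs, (nn l b.1 : ℂ) * S.psi Nn (fun b : Bs => u (b.1 + p)) b x + u l x := by
  rw [prim, Pi.add_apply, Finset.sum_apply]
  congr 1
  refine Finset.sum_congr rfl fun b _ => ?_
  rw [Pi.smul_apply, nsmul_eq_mul]

end main

/-! ### case A: one base index -/

section caseA
variable {A aU : F} {U : M → ℂ}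

/-- the scalar series `psi = - ∑_m n^{-(m+1)} U ∘ sig^m` -/
def psi1 (n : ℕ) (U : M → ℂ) (x : M) : ℂ := -∑' m : ℕ, ((n : ℂ)⁻¹) ^ (m + 1) * U (S.sig^[m] x)

/-- **Case A** (helper217): `pull A = n A + ∂̄U`, `n ≥ 1`, gives `∂̄ psi1 = A`. -/
theorem series1 {n : ℕ} (hn : 1 ≤ n) (hU : S.D U aU) (hrec : S.pull A = n • A + aU) {B : ℕ → ℝ}
    (hB : ∀ x ∈ S.W, ∀ k, ‖U (S.sig^[k] x)‖ ≤ B k)
    (hs : Summable fun k : ℕ => ((n : ℝ)⁻¹) ^ (k + 1) * B k)
    (hS : S.Small (fun k => ((n : ℂ)⁻¹) ^ k • (S.pull ^ k) A)) : S.D (S.psi1 n U) A := by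
  have hn0 : (n : ℂ) ≠ 0 := by exact_mod_cast (by omega : n ≠ 0)
  have hpow : ∀ k : ℕ, ((Matrix.of fun _ _ => (n : ℂ)⁻¹ : Matrix Unit Unit ℂ) ^ k) () () =
      ((n : ℂ)⁻¹) ^ k := by
    intro k
    induction k with
    | zero => simp
    | succ k ih => rw [pow_succ, Matrix.mul_apply, Fintype.sum_unique, pow_succ]; congr 1
  have h := S.series (ι := Unit) (A := fun _ => A) (aU := fun _ => aU) (U := fun _ => U)
    (Mm := Matrix.of fun _ _ => (n : ℂ)) (Nn := Matrix.of fun _ _ => (n : ℂ)⁻¹)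
    (by
      ext a b
      rw [Matrix.mul_apply, Fintype.sum_unique]
      show (n : ℂ)⁻¹ * n = _
      rw [inv_mul_cancel₀ hn0]
      rfl)
    (fun _ => hU)
    (fun _ => by
      rw [Fintype.sum_unique, hrec]
      show n • A + aU = (n : ℂ) • A + aU
      rw [Nat.cast_smul_eq_nsmul])
    (R := fun k => ((n : ℝ)⁻¹) ^ (k + 1)) (B := B)
    (fun k a b => by rw [hpow, norm_pow, norm_inv, Complex.norm_natCast])
    (fun x hx _ k => hB x hx k) hs
    (fun _ => by
      have : (fun k : ℕ => ∑ j : Unit, ((Matrix.of fun _ _ => (n : ℂ)⁻¹ : Matrix Unit Unit ℂ) ^ k)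
          () j • (S.pull ^ k) A) = fun k => ((n : ℂ)⁻¹) ^ k • (S.pull ^ k) A := by
        funext k
        rw [Fintype.sum_unique]
        congr 1
        exact hpow k
      exact this ▸ hS) ()
  have h2 : S.psi (Matrix.of fun _ _ => (n : ℂ)⁻¹ : Matrix Unit Unit ℂ) (fun _ => U) () =
      S.psi1 n U := by
    funext x
    rw [psi, psi1]
    congr 2
    funext m
    rw [Fintype.sum_unique]
    congr 1
    exact hpow (m + 1)
  rwa [h2] at h

/-- pointwise bound -/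
theorem norm_psi1_le {n : ℕ} {B : ℕ → ℝ} {x : M} (hB : ∀ k, ‖U (S.sig^[k] x)‖ ≤ B k)
    (hs : Summable fun k : ℕ => ((n : ℝ)⁻¹) ^ (k + 1) * B k) :
    ‖S.psi1 n U x‖ ≤ ∑' k : ℕ, ((n : ℝ)⁻¹) ^ (k + 1) * B k := by
  rw [psi1, norm_neg]
  refine tsum_of_norm_bounded hs.hasSum fun k => ?_
  rw [norm_mul, norm_pow, norm_inv, Complex.norm_natCast]
  exact mul_le_mul_of_nonneg_left (hB k) (by positivity)

/-- the functional equation `psi ∘ sig = n psi + U` -/
theorem psi1_sig {n : ℕ} (hn : 1 ≤ n) {x : M}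
    (hs : Summable fun m : ℕ => ((n : ℂ)⁻¹) ^ (m + 1) * U (S.sig^[m] x)) :
    S.psi1 n U (S.sig x) = n * S.psi1 n U x + U x := by
  have hn0 : (n : ℂ) ≠ 0 := by exact_mod_cast (by omega : n ≠ 0)
  rw [psi1, psi1, hs.tsum_eq_zero_add]
  have h1 : (fun m : ℕ => ((n : ℂ)⁻¹) ^ (m + 1) * U (S.sig^[m] (S.sig x))) =
      fun m : ℕ => (n : ℂ) * (((n : ℂ)⁻¹) ^ (m + 1 + 1) * U (S.sig^[m + 1] x)) := by
    funext m
    rw [Function.iterate_succ_apply, pow_succ (_ : ℂ) (m + 1)]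
    field_simp
  rw [h1, tsum_mul_left]
  simp only [zero_add, pow_one, Function.iterate_zero, id_eq]
  field_simp
  ring

end caseA

end DSys

end Vale.Agent.P267.H585
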